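import Vale.Agent.P252.Main

namespace Vale.Agent.Results.P252.Counterexample

open Vale.Agent.P252 Matrix
open scoped ContDiff

/-- In every dimension `n ≥ 10` there is a smooth entire function with positive definite Hessian
that solves the affine maximal equation and is not a quadratic polynomial. -/
theorem result (n : ℕ) (hn : 10 ≤ n) :
    ∃ u : (Fin n → ℝ) → ℝ, ContDiff ℝ ∞ u ∧ (∀ x, (hess u x).PosDef) ∧ AffineMaximal u ∧
      ¬ ∃ (A : Matrix (Fin n) (Fin n) ℝ) (b : Fin n → ℝ) (c : ℝ),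
        ∀ x, u x = 1 / 2 * (x ⬝ᵥ A *ᵥ x) + b ⬝ᵥ x + c := by
  obtain ⟨p, rfl⟩ : ∃ p, n = p + 1 := ⟨n - 1, by omega⟩
  obtain ⟨α, β, F, h⟩ := exists_prof p (by omega)
  exact ⟨uu F, h.smooth, h.posDef, h.affine (by omega), h.not_quad⟩

end Vale.Agent.Results.P252.Counterexample
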